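import Vale.Agent.H61.P227.Defs

/-!
# P227: the logarithmic Brunn-Minkowski inequality for a body and its diagonal stretch

If `K ⊆ ℝ^n` is compact and invariant under the coordinate sign changes that are constant on
the level sets of a positive vector `d`, and `L = diag(d) K`, then
`|K|^(1-lam) |L|^lam ≤ |(1-lam) K +_0 lam L|`.  The proof shows `diag(d)^lam K ⊆ (1-lam) K +_0 lam L`.
-/

open MeasureTheory

namespace Vale.Agent.H61.P227

/-- Hölder's inequality in the weighted geometric-mean form. -/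
theorem sum_geom_le {ι : Type*} (s : Finset ι) (α β : ι → ℝ) (hα : ∀ j ∈ s, 0 ≤ α j)
    (hβ : ∀ j ∈ s, 0 ≤ β j) (lam : ℝ) (h0 : 0 ≤ lam) (h1 : lam ≤ 1) :
    ∑ j ∈ s, α j ^ (1 - lam) * β j ^ lam ≤ (∑ j ∈ s, α j) ^ (1 - lam) * (∑ j ∈ s, β j) ^ lam := by
  have hA : 0 ≤ ∑ j ∈ s, α j := Finset.sum_nonneg hα
  have hB : 0 ≤ ∑ j ∈ s, β j := Finset.sum_nonneg hβ
  have h1' : 0 ≤ 1 - lam := by linarith
  rcases hA.eq_or_lt with hA0 | hApos
  · -- all α vanish
    have hz : ∀ j ∈ s, α j = 0 := (Finset.sum_eq_zero_iff_of_nonneg hα).mp hA0.symm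
    rcases h1'.eq_or_lt with hl | hl
    · -- lam = 1
      have hlam : lam = 1 := by linarith
      subst hlam
      simp
    · have : ∑ j ∈ s, α j ^ (1 - lam) * β j ^ lam = 0 := by
        apply Finset.sum_eq_zero
        intro j hj
        rw [hz j hj, Real.zero_rpow hl.ne', zero_mul]
      rw [this]
      positivity
  rcases hB.eq_or_lt with hB0 | hBpos
  · have hz : ∀ j ∈ s, β j = 0 := (Finset.sum_eq_zero_iff_of_nonneg hβ).mp hB0.symm
    rcases h0.eq_or_lt with hl | hl
    · subst hl
      simp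
    · have : ∑ j ∈ s, α j ^ (1 - lam) * β j ^ lam = 0 := by
        apply Finset.sum_eq_zero
        intro j hj
        rw [hz j hj, Real.zero_rpow hl.ne', mul_zero]
      rw [this]
      positivity
  set A := ∑ j ∈ s, α j with hAdef
  set B := ∑ j ∈ s, β j with hBdef
  have hAB : 0 < A ^ (1 - lam) * B ^ lam := by positivity
  have hterm : ∀ j ∈ s, α j ^ (1 - lam) * β j ^ lam ≤
      A ^ (1 - lam) * B ^ lam * ((1 - lam) * (α j / A) + lam * (β j / B)) := by
    intro j hj
    have hg := Real.geom_mean_le_arith_mean2_weighted h1' h0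
      (div_nonneg (hα j hj) hApos.le) (div_nonneg (hβ j hj) hBpos.le) (by ring)
    have e1 : (α j / A) ^ (1 - lam) = α j ^ (1 - lam) / A ^ (1 - lam) :=
      Real.div_rpow (hα j hj) hApos.le _
    have e2 : (β j / B) ^ lam = β j ^ lam / B ^ lam := Real.div_rpow (hβ j hj) hBpos.le _
    rw [e1, e2] at hg
    have hA' : 0 < A ^ (1 - lam) := by positivity
    have hB' : 0 < B ^ lam := by positivity
    have : α j ^ (1 - lam) * β j ^ lam =
        A ^ (1 - lam) * B ^ lam * (α j ^ (1 - lam) / A ^ (1 - lam) * (β j ^ lam / B ^ lam)) := by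
      field_simp
    rw [this]
    exact mul_le_mul_of_nonneg_left hg hAB.le
  calc ∑ j ∈ s, α j ^ (1 - lam) * β j ^ lam
      ≤ ∑ j ∈ s, A ^ (1 - lam) * B ^ lam * ((1 - lam) * (α j / A) + lam * (β j / B)) :=
        Finset.sum_le_sum hterm
    _ = A ^ (1 - lam) * B ^ lam * ((1 - lam) * (A / A) + lam * (B / B)) := by
        rw [← Finset.mul_sum, Finset.sum_add_distrib, ← Finset.mul_sum, ← Finset.mul_sum,
          ← Finset.sum_div, ← Finset.sum_div]
    _ = A ^ (1 - lam) * B ^ lam := by
        rw [div_self hApos.ne', div_self hBpos.ne']; ring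

theorem le_supportFn {n : ℕ} {K : Set (Fin n → ℝ)} (hK : IsCompact K) {x : Fin n → ℝ}
    (hx : x ∈ K) (u : Fin n → ℝ) : x ⬝ᵥ u ≤ supportFn K u := by
  have hcont : Continuous (fun y : Fin n → ℝ => y ⬝ᵥ u) := by
    unfold dotProduct
    fun_prop
  exact le_csSup (hK.image hcont).bddAbove (Set.mem_image_of_mem _ hx)

/-- The Wulff shape of any function is bounded. -/
theorem wulff_isBounded {n : ℕ} (f : (Fin n → ℝ) → ℝ) : Bornology.IsBounded (wulff f) := by
  rw [isBounded_iff_forall_norm_le]
  refine ⟨∑ i : Fin n, (|f (Pi.single i 1)| + |f (Pi.single i (-1))|), fun x hx => ?_⟩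
  have hC : 0 ≤ ∑ i : Fin n, (|f (Pi.single i 1)| + |f (Pi.single i (-1))|) :=
    Finset.sum_nonneg (fun i _ => by positivity)
  rw [pi_norm_le_iff_of_nonneg hC]
  intro i
  have h1 : x ⬝ᵥ (Pi.single i 1) ≤ f (Pi.single i 1) := hx _ (by simp)
  have h2 : x ⬝ᵥ (Pi.single i (-1)) ≤ f (Pi.single i (-1)) := hx _ (by simp)
  simp only [dotProduct_single, mul_one, mul_neg] at h1 h2
  have h3 : |f (Pi.single i 1)| + |f (Pi.single i (-1))| ≤
      ∑ i : Fin n, (|f (Pi.single i 1)| + |f (Pi.single i (-1))|) :=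
    Finset.single_le_sum (f := fun i => |f (Pi.single i 1)| + |f (Pi.single i (-1))|)
      (fun i _ => by positivity) (Finset.mem_univ i)
  rw [Real.norm_eq_abs, abs_le]
  constructor
  · have := le_abs_self (f (Pi.single i (-1)))
    have := abs_nonneg (f (Pi.single i 1))
    linarith
  · have := le_abs_self (f (Pi.single i 1))
    have := abs_nonneg (f (Pi.single i (-1)))
    linarith

/-- Volume of the image of a set under a positive diagonal map. -/
theorem volume_image_diag {n : ℕ} (d : Fin n → ℝ) (hd : ∀ i, 0 < d i) (S : Set (Fin n → ℝ)) :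
    volume ((fun x : Fin n → ℝ => fun i => d i * x i) '' S) =
      ENNReal.ofReal (∏ i, d i) * volume S := by
  have h1 : (fun x : Fin n → ℝ => fun i => d i * x i) = Matrix.toLin' (Matrix.diagonal d) := by
    funext x i
    simp [Matrix.toLin'_apply, Matrix.mulVec_diagonal]
  rw [h1, Measure.addHaar_image_linearMap, LinearMap.det_toLin', Matrix.det_diagonal,
    abs_of_pos (Finset.prod_pos (fun i _ => hd i))]

/-- Key pointwise inequality: for a compact set `K` invariant under the sign changes that are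
constant on the level sets of `d`, and `L = diag(d) K`, the point `diag(d)^lam x` lies in every
half-space defining the logarithmic combination. -/
theorem stretch_dot_le {n : ℕ} (K : Set (Fin n → ℝ)) (hK : IsCompact K)
    (d : Fin n → ℝ) (hd : ∀ i, 0 < d i)
    (hsym : ∀ ε : Fin n → ℝ, (∀ i, ε i = 1 ∨ ε i = -1) → (∀ i j, d i = d j → ε i = ε j) →
      ∀ x ∈ K, (fun i => ε i * x i) ∈ K)
    (lam : ℝ) (h0 : 0 ≤ lam) (h1 : lam ≤ 1)
    (x : Fin n → ℝ) (hx : x ∈ K) (u : Fin n → ℝ) :
    (fun i => d i ^ lam * x i) ⬝ᵥ u ≤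
      supportFn K u ^ (1 - lam) *
        supportFn ((fun y : Fin n → ℝ => fun i => d i * y i) '' K) u ^ lam := by
  classical
  have h1' : 0 ≤ 1 - lam := by linarith
  -- block sums, indexed by the values of `d`
  set S : Finset ℝ := Finset.univ.image d with hS
  set a : ℝ → ℝ := fun v => ∑ i with d i = v, x i * u i with ha
  set ε : Fin n → ℝ := fun i => if 0 ≤ a (d i) then 1 else -1 with hε
  have hε1 : ∀ i, ε i = 1 ∨ ε i = -1 := by
    intro i
    simp only [hε]
    split_ifs
    · exact Or.inl rfl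
    · exact Or.inr rfl
  have hε2 : ∀ i j, d i = d j → ε i = ε j := by
    intro i j hij
    simp only [hε, hij]
  set σ : ℝ → ℝ := fun v => if 0 ≤ a v then 1 else -1 with hσ
  have hσa : ∀ v, σ v * a v = |a v| := by
    intro v
    simp only [hσ]
    split_ifs with h
    · rw [one_mul, abs_of_nonneg h]
    · rw [abs_of_neg (not_le.mp h)]; ring
  set x' : Fin n → ℝ := fun i => ε i * x i with hx'
  have hx'K : x' ∈ K := hsym ε hε1 hε2 x hx
  have hpos : ∀ v ∈ S, 0 < v := by
    intro v hv
    obtain ⟨i, _, rfl⟩ := Finset.mem_image.mp hv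
    exact hd i
  -- fibrewise decomposition of sums
  have hfib : ∀ w : ℝ → ℝ, ∑ i, w (d i) * (x i * u i) = ∑ v ∈ S, w v * a v := by
    intro w
    rw [← Finset.sum_fiberwise_of_maps_to (s := Finset.univ) (t := S) (g := d)
      (fun i _ => Finset.mem_image_of_mem d (Finset.mem_univ i))
      (fun i => w (d i) * (x i * u i))]
    apply Finset.sum_congr rfl
    intro v _
    rw [ha, Finset.mul_sum]
    apply Finset.sum_congr rfl
    intro i hi
    rw [(Finset.mem_filter.mp hi).2]
  have e0 : (fun i => d i ^ lam * x i) ⬝ᵥ u = ∑ v ∈ S, v ^ lam * a v := by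
    rw [← hfib (fun v => v ^ lam)]
    simp only [dotProduct]
    apply Finset.sum_congr rfl
    intro i _
    ring
  have e1 : x' ⬝ᵥ u = ∑ v ∈ S, |a v| := by
    have : x' ⬝ᵥ u = ∑ i, σ (d i) * (x i * u i) := by
      simp only [dotProduct, hx', hε, hσ]
      apply Finset.sum_congr rfl
      intro i _
      ring
    rw [this, hfib σ]
    exact Finset.sum_congr rfl (fun v _ => hσa v)
  have e2 : (fun i => d i * x' i) ⬝ᵥ u = ∑ v ∈ S, v * |a v| := by
    have : (fun i => d i * x' i) ⬝ᵥ u = ∑ i, (d i * σ (d i)) * (x i * u i) := by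
      simp only [dotProduct, hx', hε, hσ]
      apply Finset.sum_congr rfl
      intro i _
      ring
    rw [this, hfib (fun v => v * σ v)]
    apply Finset.sum_congr rfl
    intro v _
    rw [mul_assoc, hσa v]
  have hLc : IsCompact ((fun y : Fin n → ℝ => fun i => d i * y i) '' K) := by
    apply hK.image
    fun_prop
  have b1 : ∑ v ∈ S, |a v| ≤ supportFn K u := by
    rw [← e1]; exact le_supportFn hK hx'K u
  have b2 : ∑ v ∈ S, v * |a v| ≤
      supportFn ((fun y : Fin n → ℝ => fun i => d i * y i) '' K) u := by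
    rw [← e2]; exact le_supportFn hLc (Set.mem_image_of_mem _ hx'K) u
  have hA : 0 ≤ ∑ v ∈ S, |a v| := Finset.sum_nonneg (fun v _ => abs_nonneg _)
  have hB : 0 ≤ ∑ v ∈ S, v * |a v| :=
    Finset.sum_nonneg (fun v hv => mul_nonneg (hpos v hv).le (abs_nonneg _))
  calc (fun i => d i ^ lam * x i) ⬝ᵥ u = ∑ v ∈ S, v ^ lam * a v := e0
    _ ≤ ∑ v ∈ S, v ^ lam * |a v| := by
        apply Finset.sum_le_sum
        intro v hv
        exact mul_le_mul_of_nonneg_left (le_abs_self _) (Real.rpow_nonneg (hpos v hv).le _)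
    _ = ∑ v ∈ S, |a v| ^ (1 - lam) * (v * |a v|) ^ lam := by
        apply Finset.sum_congr rfl
        intro v hv
        rw [Real.mul_rpow (hpos v hv).le (abs_nonneg _)]
        have : |a v| = |a v| ^ (1 - lam) * |a v| ^ lam := by
          rw [← Real.rpow_add_of_nonneg (abs_nonneg _) h1' h0]
          simp
        nth_rewrite 1 [this]
        ring
    _ ≤ (∑ v ∈ S, |a v|) ^ (1 - lam) * (∑ v ∈ S, v * |a v|) ^ lam :=
        sum_geom_le S (fun v => |a v|) (fun v => v * |a v|)
          (fun v _ => abs_nonneg _) (fun v hv => mul_nonneg (hpos v hv).le (abs_nonneg _))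
          lam h0 h1
    _ ≤ supportFn K u ^ (1 - lam) *
        supportFn ((fun y : Fin n → ℝ => fun i => d i * y i) '' K) u ^ lam := by
        apply mul_le_mul
        · exact Real.rpow_le_rpow hA b1 h1'
        · exact Real.rpow_le_rpow hB b2 h0
        · exact Real.rpow_nonneg hB _
        · exact Real.rpow_nonneg (hA.trans b1) _

/-- Logarithmic Brunn-Minkowski inequality for a compact set invariant under the sign changes
that are constant on the level sets of `d`, and its image under the diagonal map `diag(d)`. -/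
theorem logBM_diag_stretch {n : ℕ} (K : Set (Fin n → ℝ)) (hK : IsCompact K)
    (d : Fin n → ℝ) (hd : ∀ i, 0 < d i)
    (hsym : ∀ ε : Fin n → ℝ, (∀ i, ε i = 1 ∨ ε i = -1) → (∀ i j, d i = d j → ε i = ε j) →
      ∀ x ∈ K, (fun i => ε i * x i) ∈ K)
    (lam : ℝ) (h0 : 0 ≤ lam) (h1 : lam ≤ 1) :
    (volume K).toReal ^ (1 - lam) *
        (volume ((fun y : Fin n → ℝ => fun i => d i * y i) '' K)).toReal ^ lam ≤
      (volume (logSum lam K ((fun y : Fin n → ℝ => fun i => d i * y i) '' K))).toReal := by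
  have h1' : 0 ≤ 1 - lam := by linarith
  set L := (fun y : Fin n → ℝ => fun i => d i * y i) '' K with hL
  -- the intermediate body
  have hsub : (fun y : Fin n → ℝ => fun i => d i ^ lam * y i) '' K ⊆ logSum lam K L := by
    rintro _ ⟨x, hx, rfl⟩
    intro u _
    exact stretch_dot_le K hK d hd hsym lam h0 h1 x hx u
  have hfin : volume (logSum lam K L) < ⊤ := (wulff_isBounded _).measure_lt_top
  have hvolL : volume L = ENNReal.ofReal (∏ i, d i) * volume K :=
    volume_image_diag d hd K
  have hvolM : volume ((fun y : Fin n → ℝ => fun i => d i ^ lam * y i) '' K) =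
      ENNReal.ofReal (∏ i, d i ^ lam) * volume K :=
    volume_image_diag (fun i => d i ^ lam) (fun i => Real.rpow_pos_of_pos (hd i) _) K
  have hP : 0 ≤ ∏ i, d i := Finset.prod_nonneg (fun i _ => (hd i).le)
  have hPlam : ∏ i, d i ^ lam = (∏ i, d i) ^ lam :=
    Real.finsetProd_rpow _ _ (fun i _ => (hd i).le) _
  have hv : 0 ≤ (volume K).toReal := ENNReal.toReal_nonneg
  calc (volume K).toReal ^ (1 - lam) * (volume L).toReal ^ lam
      = (∏ i, d i) ^ lam * (volume K).toReal := by
        rw [hvolL, ENNReal.toReal_mul, ENNReal.toReal_ofReal hP, Real.mul_rpow hP hv]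
        have : (volume K).toReal = (volume K).toReal ^ (1 - lam) * (volume K).toReal ^ lam := by
          rw [← Real.rpow_add_of_nonneg hv h1' h0]
          simp
        nth_rewrite 3 [this]
        ring
    _ = (volume ((fun y : Fin n → ℝ => fun i => d i ^ lam * y i) '' K)).toReal := by
        rw [hvolM, ENNReal.toReal_mul, ENNReal.toReal_ofReal (by rw [hPlam]; positivity), hPlam]
    _ ≤ (volume (logSum lam K L)).toReal :=
        ENNReal.toReal_mono hfin.ne (measure_mono hsub)

end Vale.Agent.H61.P227
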