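import Mathlib

/-!
# Definitions for P227 (logarithmic Brunn-Minkowski)

`ℝ^n` is modelled as `Fin n → ℝ`, with the Euclidean inner product `x ⬝ᵥ u = ∑ i, x i * u i`
(Mathlib's `dotProduct`), the unit sphere `{u | u ⬝ᵥ u = 1}` and Lebesgue measure `volume`.
-/

open MeasureTheory

namespace Vale.Agent.H61.P227

/-- Support function of a set `K ⊆ ℝ^n`: `h_K(u) = sup_{x ∈ K} ⟨x, u⟩`. -/
noncomputable def supportFn {n : ℕ} (K : Set (Fin n → ℝ)) (u : Fin n → ℝ) : ℝ :=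
  sSup ((fun x : Fin n → ℝ => x ⬝ᵥ u) '' K)

/-- Wulff shape of a function `f` on the unit sphere:
the set of `x` with `⟨x, u⟩ ≤ f u` for all unit vectors `u`. -/
def wulff {n : ℕ} (f : (Fin n → ℝ) → ℝ) : Set (Fin n → ℝ) :=
  {x | ∀ u : Fin n → ℝ, u ⬝ᵥ u = 1 → x ⬝ᵥ u ≤ f u}

/-- Logarithmic combination `(1 - lam) K +_0 lam L`, the Wulff shape of
`h_K ^ (1 - lam) * h_L ^ lam`. -/
noncomputable def logSum {n : ℕ} (lam : ℝ) (K L : Set (Fin n → ℝ)) : Set (Fin n → ℝ) :=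
  wulff (fun u => supportFn K u ^ (1 - lam) * supportFn L u ^ lam)

end Vale.Agent.H61.P227
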