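import Mathlib

/-!
# One-dimensional Brunn-Minkowski and Prékopa-Leindler inequalities

Helper file for P227.  Contents: the Brunn-Minkowski inequality on the line, the
Prékopa-Leindler inequality on the line for bounded functions (via level sets and the layer-cake
formula), and its multiplicative form on the half-line `(0, ∞)` (exponential change of variables).
-/

open MeasureTheory Set Pointwise

namespace Vale.Agent.H61.P227


/-- One-dimensional Brunn-Minkowski inequality for nonempty compact sets. -/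
theorem bm1d_compact {A B : Set ℝ} (hA : IsCompact A) (hB : IsCompact B)
    (hAne : A.Nonempty) (hBne : B.Nonempty) :
    volume A + volume B ≤ volume (A + B) := by
  have ha : sSup A ∈ A := hA.sSup_mem hAne
  have hb : sInf B ∈ B := hB.sInf_mem hBne
  set a := sSup A with hadef
  set b := sInf B with hbdef
  have h1 : (fun x => x + b) '' A ⊆ A + B := by
    rintro _ ⟨x, hx, rfl⟩
    exact Set.add_mem_add hx hb
  have h2 : (fun y => a + y) '' B ⊆ A + B := by
    rintro _ ⟨y, hy, rfl⟩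
    exact Set.add_mem_add ha hy
  have h3 : (fun x => x + b) '' A ∩ (fun y => a + y) '' B ⊆ {a + b} := by
    rintro _ ⟨⟨x, hx, rfl⟩, ⟨y, hy, hxy⟩⟩
    have hxa : x ≤ a := le_csSup hA.bddAbove hx
    have hby : b ≤ y := csInf_le hB.bddBelow hy
    simp only [mem_singleton_iff]
    simp only at hxy
    linarith
  have hmA : volume ((fun x => x + b) '' A) = volume A := by
    rw [Set.image_add_right, measure_preimage_add_right]
  have hmB : volume ((fun y => a + y) '' B) = volume B := by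
    rw [Set.image_add_left, measure_preimage_add]
  have hmeas : MeasurableSet ((fun y => a + y) '' B) :=
    (hB.image (by fun_prop)).isClosed.measurableSet
  have h0 : volume ((fun x => x + b) '' A ∩ (fun y => a + y) '' B) = 0 :=
    measure_mono_null h3 (by simp)
  calc volume A + volume B
      = volume ((fun x => x + b) '' A) + volume ((fun y => a + y) '' B) := by rw [hmA, hmB]
    _ = volume ((fun x => x + b) '' A ∪ (fun y => a + y) '' B) +
          volume ((fun x => x + b) '' A ∩ (fun y => a + y) '' B) :=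
        (measure_union_add_inter _ hmeas).symm
    _ = volume ((fun x => x + b) '' A ∪ (fun y => a + y) '' B) := by rw [h0, add_zero]
    _ ≤ volume (A + B) := measure_mono (union_subset h1 h2)

/-- One-dimensional Brunn-Minkowski inequality for nonempty measurable sets
(the sum set need not be measurable; `volume` is the outer measure). -/
theorem bm1d {A B : Set ℝ} (hA : MeasurableSet A) (hB : MeasurableSet B)
    (hAne : A.Nonempty) (hBne : B.Nonempty) :
    volume A + volume B ≤ volume (A + B) := by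
  obtain ⟨a0, ha0⟩ := hAne
  obtain ⟨b0, hb0⟩ := hBne
  rw [hA.measure_eq_iSup_isCompact, hB.measure_eq_iSup_isCompact]
  -- the family of compact subsets is directed, but a direct two-variable bound suffices
  have key : ∀ K ⊆ A, IsCompact K → ∀ K' ⊆ B, IsCompact K' →
      volume K + volume K' ≤ volume (A + B) := by
    intro K hKA hK K' hKB hK'
    have hK1 : IsCompact (insert a0 K) := hK.insert a0
    have hK2 : IsCompact (insert b0 K') := hK'.insert b0
    calc volume K + volume K'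
        ≤ volume (insert a0 K) + volume (insert b0 K') :=
          add_le_add (measure_mono (subset_insert _ _)) (measure_mono (subset_insert _ _))
      _ ≤ volume (insert a0 K + insert b0 K') :=
          bm1d_compact hK1 hK2 (insert_nonempty _ _) (insert_nonempty _ _)
      _ ≤ volume (A + B) :=
          measure_mono (Set.add_subset_add (insert_subset ha0 hKA) (insert_subset hb0 hKB))
  have e1 : (⨆ (K : Set ℝ) (_ : K ⊆ A) (_ : IsCompact K), volume K) =
      ⨆ K : {K : Set ℝ // K ⊆ A ∧ IsCompact K}, volume (K : Set ℝ) := by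
    rw [iSup_subtype]
    simp only [iSup_and]
  have e2 : (⨆ (K : Set ℝ) (_ : K ⊆ B) (_ : IsCompact K), volume K) =
      ⨆ K : {K : Set ℝ // K ⊆ B ∧ IsCompact K}, volume (K : Set ℝ) := by
    rw [iSup_subtype]
    simp only [iSup_and]
  rw [e1, e2]
  have : Nonempty {K : Set ℝ // K ⊆ A ∧ IsCompact K} := ⟨⟨∅, empty_subset _, isCompact_empty⟩⟩
  have : Nonempty {K : Set ℝ // K ⊆ B ∧ IsCompact K} := ⟨⟨∅, empty_subset _, isCompact_empty⟩⟩
  exact ENNReal.iSup_add_iSup_le fun K K' => key K.1 K.2.1 K.2.2 K'.1 K'.2.1 K'.2.2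

/-- Scaled one-dimensional Brunn-Minkowski. -/
theorem bm1d_smul {A B : Set ℝ} (hA : MeasurableSet A) (hB : MeasurableSet B)
    (hAne : A.Nonempty) (hBne : B.Nonempty) {t : ℝ} (ht0 : 0 < t) (ht1 : t < 1) :
    ENNReal.ofReal (1 - t) * volume A + ENNReal.ofReal t * volume B ≤
      volume ((1 - t) • A + t • B) := by
  have h1t : (0 : ℝ) < 1 - t := by linarith
  have e1 : volume ((1 - t) • A) = ENNReal.ofReal (1 - t) * volume A := by
    rw [Measure.addHaar_smul]
    simp [abs_of_pos h1t]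
  have e2 : volume (t • B) = ENNReal.ofReal t * volume B := by
    rw [Measure.addHaar_smul]
    simp [abs_of_pos ht0]
  rw [← e1, ← e2]
  exact bm1d (hA.const_smul₀ _) (hB.const_smul₀ _) (hAne.smul_set) (hBne.smul_set)

/-- Prékopa-Leindler on the line, normalised form (both `f` and `g` have supremum one). -/
theorem pl1d_normalized {f g h : ℝ → ℝ} (hf : Measurable f) (hg : Measurable g)
    (hh : Measurable h) (hf0 : ∀ x, 0 ≤ f x) (hg0 : ∀ x, 0 ≤ g x) (hh0 : ∀ x, 0 ≤ h x)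
    (hf1 : ∀ x, f x ≤ 1) (hg1 : ∀ x, g x ≤ 1)
    (hfs : ∀ τ : ℝ, τ < 1 → ∃ x, τ < f x) (hgs : ∀ τ : ℝ, τ < 1 → ∃ x, τ < g x)
    {t : ℝ} (ht0 : 0 < t) (ht1 : t < 1)
    (H : ∀ x y, f x ^ (1 - t) * g y ^ t ≤ h ((1 - t) * x + t * y)) :
    ENNReal.ofReal (1 - t) * (∫⁻ x, ENNReal.ofReal (f x)) +
        ENNReal.ofReal t * (∫⁻ x, ENNReal.ofReal (g x)) ≤ ∫⁻ x, ENNReal.ofReal (h x) := by
  have h1t : (0 : ℝ) < 1 - t := by linarith
  -- layer cake
  have Lf := lintegral_eq_lintegral_meas_lt volume (Filter.Eventually.of_forall hf0)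
    hf.aemeasurable
  have Lg := lintegral_eq_lintegral_meas_lt volume (Filter.Eventually.of_forall hg0)
    hg.aemeasurable
  have Lh := lintegral_eq_lintegral_meas_lt volume (Filter.Eventually.of_forall hh0)
    hh.aemeasurable
  -- restriction to (0,1)
  have Rf : ∫⁻ τ in Ioi (0:ℝ), volume {a | τ < f a} = ∫⁻ τ in Ioo (0:ℝ) 1, volume {a | τ < f a} := by
    have : ∀ τ : ℝ, volume {a | τ < f a} = (Iio (1:ℝ)).indicator (fun τ => volume {a | τ < f a}) τ := by
      intro τ
      by_cases hτ : τ < 1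
      · simp [hτ]
      · have : {a | τ < f a} = ∅ := by
          ext a
          simp only [mem_ofPred_eq, mem_empty_iff_false, iff_false, not_lt]
          exact (hf1 a).trans (not_lt.mp hτ)
        simp [hτ, this]
    calc ∫⁻ τ in Ioi (0:ℝ), volume {a | τ < f a}
        = ∫⁻ τ in Ioi (0:ℝ), (Iio (1:ℝ)).indicator (fun τ => volume {a | τ < f a}) τ :=
          lintegral_congr fun τ => this τ
      _ = ∫⁻ τ in Ioi (0:ℝ) ∩ Iio 1, volume {a | τ < f a} := by
          rw [lintegral_indicator measurableSet_Iio, Measure.restrict_restrict measurableSet_Iio,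
            inter_comm]
      _ = ∫⁻ τ in Ioo (0:ℝ) 1, volume {a | τ < f a} := by rw [Ioi_inter_Iio]
  have Rg : ∫⁻ τ in Ioi (0:ℝ), volume {a | τ < g a} = ∫⁻ τ in Ioo (0:ℝ) 1, volume {a | τ < g a} := by
    have : ∀ τ : ℝ, volume {a | τ < g a} = (Iio (1:ℝ)).indicator (fun τ => volume {a | τ < g a}) τ := by
      intro τ
      by_cases hτ : τ < 1
      · simp [hτ]
      · have : {a | τ < g a} = ∅ := by
          ext a
          simp only [mem_ofPred_eq, mem_empty_iff_false, iff_false, not_lt]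
          exact (hg1 a).trans (not_lt.mp hτ)
        simp [hτ, this]
    calc ∫⁻ τ in Ioi (0:ℝ), volume {a | τ < g a}
        = ∫⁻ τ in Ioi (0:ℝ), (Iio (1:ℝ)).indicator (fun τ => volume {a | τ < g a}) τ :=
          lintegral_congr fun τ => this τ
      _ = ∫⁻ τ in Ioi (0:ℝ) ∩ Iio 1, volume {a | τ < g a} := by
          rw [lintegral_indicator measurableSet_Iio, Measure.restrict_restrict measurableSet_Iio,
            inter_comm]
      _ = ∫⁻ τ in Ioo (0:ℝ) 1, volume {a | τ < g a} := by rw [Ioi_inter_Iio]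
  -- pointwise inequality of level sets
  have key : ∀ τ ∈ Ioo (0:ℝ) 1,
      ENNReal.ofReal (1 - t) * volume {a | τ < f a} + ENNReal.ofReal t * volume {a | τ < g a} ≤
        volume {a | τ < h a} := by
    intro τ hτ
    have mA : MeasurableSet {a | τ < f a} := measurableSet_lt measurable_const hf
    have mB : MeasurableSet {a | τ < g a} := measurableSet_lt measurable_const hg
    refine (bm1d_smul mA mB (hfs τ hτ.2) (hgs τ hτ.2) ht0 ht1).trans (measure_mono ?_)
    rintro _ ⟨_, ⟨x, hx, rfl⟩, _, ⟨y, hy, rfl⟩, rfl⟩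
    simp only [mem_ofPred_eq] at hx hy ⊢
    have h1 : τ ^ (1 - t) < f x ^ (1 - t) := Real.rpow_lt_rpow hτ.1.le hx h1t
    have h2 : τ ^ t < g y ^ t := Real.rpow_lt_rpow hτ.1.le hy ht0
    have h3 : τ ^ (1 - t) * τ ^ t = τ := by
      rw [← Real.rpow_add hτ.1]; simp
    have h4 : 0 < τ ^ (1 - t) := Real.rpow_pos_of_pos hτ.1 _
    have h5 : 0 < τ ^ t := Real.rpow_pos_of_pos hτ.1 _
    calc τ = τ ^ (1 - t) * τ ^ t := h3.symm
      _ < f x ^ (1 - t) * g y ^ t := mul_lt_mul'' h1 h2 h4.le h5.le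
      _ ≤ h ((1 - t) * x + t * y) := H x y
  have mF : Measurable fun τ : ℝ => volume {a | τ < f a} := by
    apply Antitone.measurable
    intro τ₁ τ₂ h12
    exact measure_mono fun a (ha : τ₂ < f a) => lt_of_le_of_lt h12 ha
  rw [Lf, Lg, Lh, Rf, Rg]
  calc ENNReal.ofReal (1 - t) * (∫⁻ τ in Ioo (0:ℝ) 1, volume {a | τ < f a}) +
        ENNReal.ofReal t * (∫⁻ τ in Ioo (0:ℝ) 1, volume {a | τ < g a})
      = ∫⁻ τ in Ioo (0:ℝ) 1, (ENNReal.ofReal (1 - t) * volume {a | τ < f a} +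
          ENNReal.ofReal t * volume {a | τ < g a}) := by
        rw [lintegral_add_left (mF.const_mul _), lintegral_const_mul' _ _ ENNReal.ofReal_ne_top,
          lintegral_const_mul' _ _ ENNReal.ofReal_ne_top]
    _ ≤ ∫⁻ τ in Ioo (0:ℝ) 1, volume {a | τ < h a} := setLIntegral_mono' measurableSet_Ioo key
    _ ≤ ∫⁻ τ in Ioi (0:ℝ), volume {a | τ < h a} := lintegral_mono_set Ioo_subset_Ioi_self

/-- Weighted arithmetic-geometric mean inequality in `ℝ≥0∞`. -/
theorem ennreal_geom_le_arith (a b : ENNReal) {t : ℝ} (ht0 : 0 < t) (ht1 : t < 1) :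
    a ^ (1 - t) * b ^ t ≤ ENNReal.ofReal (1 - t) * a + ENNReal.ofReal t * b := by
  have h1t : (0 : ℝ) < 1 - t := by linarith
  rcases eq_or_ne a ⊤ with rfl | ha
  · rw [ENNReal.mul_top (by simpa using h1t)]
    simp
  rcases eq_or_ne b ⊤ with rfl | hb
  · rw [ENNReal.mul_top (by simpa using ht0)]
    simp
  lift a to NNReal using ha
  lift b to NNReal using hb
  have key := NNReal.geom_mean_le_arith_mean2_weighted (1 - t).toNNReal t.toNNReal a b (by
    rw [← Real.toNNReal_add h1t.le ht0.le]; simp)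
  rw [Real.coe_toNNReal _ h1t.le, Real.coe_toNNReal _ ht0.le] at key
  rw [← ENNReal.coe_rpow_of_nonneg _ h1t.le, ← ENNReal.coe_rpow_of_nonneg _ ht0.le]
  have e1 : ENNReal.ofReal (1 - t) = ((1 - t).toNNReal : ENNReal) := rfl
  have e2 : ENNReal.ofReal t = (t.toNNReal : ENNReal) := rfl
  rw [e1, e2]
  exact_mod_cast key

/-- Prékopa-Leindler inequality on the line for bounded functions. -/
theorem pl1d {f g h : ℝ → ℝ} (hf : Measurable f) (hg : Measurable g)
    (hh : Measurable h) (hf0 : ∀ x, 0 ≤ f x) (hg0 : ∀ x, 0 ≤ g x) (hh0 : ∀ x, 0 ≤ h x)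
    (hfb : BddAbove (range f)) (hgb : BddAbove (range g))
    {t : ℝ} (ht0 : 0 < t) (ht1 : t < 1)
    (H : ∀ x y, f x ^ (1 - t) * g y ^ t ≤ h ((1 - t) * x + t * y)) :
    (∫⁻ x, ENNReal.ofReal (f x)) ^ (1 - t) * (∫⁻ x, ENNReal.ofReal (g x)) ^ t ≤
      ∫⁻ x, ENNReal.ofReal (h x) := by
  have h1t : (0 : ℝ) < 1 - t := by linarith
  set Mf := ⨆ x, f x with hMf
  set Mg := ⨆ x, g x with hMg
  have hfM : ∀ x, f x ≤ Mf := fun x => le_ciSup hfb x
  have hgM : ∀ x, g x ≤ Mg := fun x => le_ciSup hgb x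
  rcases le_or_gt Mf 0 with hMf0 | hMf0
  · have : ∀ x, ENNReal.ofReal (f x) = 0 := fun x =>
      ENNReal.ofReal_eq_zero.mpr ((hfM x).trans hMf0)
    simp [this, ENNReal.zero_rpow_of_pos h1t]
  rcases le_or_gt Mg 0 with hMg0 | hMg0
  · have : ∀ x, ENNReal.ofReal (g x) = 0 := fun x =>
      ENNReal.ofReal_eq_zero.mpr ((hgM x).trans hMg0)
    simp [this, ENNReal.zero_rpow_of_pos ht0]
  set c := Mf ^ (1 - t) * Mg ^ t with hc
  have hcpos : 0 < c := by positivity
  have key := pl1d_normalized (f := fun x => Mf⁻¹ * f x) (g := fun x => Mg⁻¹ * g x)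
    (h := fun x => c⁻¹ * h x) (hf.const_mul _) (hg.const_mul _) (hh.const_mul _)
    (fun x => mul_nonneg (inv_nonneg.mpr hMf0.le) (hf0 x))
    (fun x => mul_nonneg (inv_nonneg.mpr hMg0.le) (hg0 x))
    (fun x => mul_nonneg (inv_nonneg.mpr hcpos.le) (hh0 x))
    (fun x => by rw [inv_mul_le_iff₀ hMf0]; simpa using hfM x)
    (fun x => by rw [inv_mul_le_iff₀ hMg0]; simpa using hgM x)
    (fun τ hτ => by
      have : τ * Mf < Mf := by nlinarith
      obtain ⟨x, hx⟩ := exists_lt_of_lt_ciSup this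
      exact ⟨x, by rw [lt_inv_mul_iff₀ hMf0]; linarith⟩)
    (fun τ hτ => by
      have : τ * Mg < Mg := by nlinarith
      obtain ⟨x, hx⟩ := exists_lt_of_lt_ciSup this
      exact ⟨x, by rw [lt_inv_mul_iff₀ hMg0]; linarith⟩)
    ht0 ht1
    (fun x y => by
      have e1 : (Mf⁻¹ * f x) ^ (1 - t) = (Mf ^ (1 - t))⁻¹ * f x ^ (1 - t) := by
        rw [Real.mul_rpow (inv_nonneg.mpr hMf0.le) (hf0 x), Real.inv_rpow hMf0.le]
      have e2 : (Mg⁻¹ * g y) ^ t = (Mg ^ t)⁻¹ * g y ^ t := by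
        rw [Real.mul_rpow (inv_nonneg.mpr hMg0.le) (hg0 y), Real.inv_rpow hMg0.le]
      rw [e1, e2]
      have : (Mf ^ (1 - t))⁻¹ * f x ^ (1 - t) * ((Mg ^ t)⁻¹ * g y ^ t) =
          c⁻¹ * (f x ^ (1 - t) * g y ^ t) := by
        rw [hc, mul_inv]; ring
      rw [this]
      exact mul_le_mul_of_nonneg_left (H x y) (inv_nonneg.mpr hcpos.le))
  -- pull the constants out
  have If : ∫⁻ x, ENNReal.ofReal (Mf⁻¹ * f x) =
      ENNReal.ofReal Mf⁻¹ * ∫⁻ x, ENNReal.ofReal (f x) := by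
    rw [← lintegral_const_mul' _ _ ENNReal.ofReal_ne_top]
    exact lintegral_congr fun x => ENNReal.ofReal_mul (inv_nonneg.mpr hMf0.le)
  have Ig : ∫⁻ x, ENNReal.ofReal (Mg⁻¹ * g x) =
      ENNReal.ofReal Mg⁻¹ * ∫⁻ x, ENNReal.ofReal (g x) := by
    rw [← lintegral_const_mul' _ _ ENNReal.ofReal_ne_top]
    exact lintegral_congr fun x => ENNReal.ofReal_mul (inv_nonneg.mpr hMg0.le)
  have Ih : ∫⁻ x, ENNReal.ofReal (c⁻¹ * h x) =
      ENNReal.ofReal c⁻¹ * ∫⁻ x, ENNReal.ofReal (h x) := by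
    rw [← lintegral_const_mul' _ _ ENNReal.ofReal_ne_top]
    exact lintegral_congr fun x => ENNReal.ofReal_mul (inv_nonneg.mpr hcpos.le)
  rw [If, Ig, Ih] at key
  have key2 := (ennreal_geom_le_arith (ENNReal.ofReal Mf⁻¹ * ∫⁻ x, ENNReal.ofReal (f x))
    (ENNReal.ofReal Mg⁻¹ * ∫⁻ x, ENNReal.ofReal (g x)) ht0 ht1).trans key
  rw [ENNReal.mul_rpow_of_nonneg _ _ h1t.le, ENNReal.mul_rpow_of_nonneg _ _ ht0.le] at key2
  have e3 : ENNReal.ofReal Mf⁻¹ ^ (1 - t) * ENNReal.ofReal Mg⁻¹ ^ t = ENNReal.ofReal c⁻¹ := by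
    rw [ENNReal.ofReal_rpow_of_nonneg (inv_nonneg.mpr hMf0.le) h1t.le,
      ENNReal.ofReal_rpow_of_nonneg (inv_nonneg.mpr hMg0.le) ht0.le,
      ← ENNReal.ofReal_mul (by positivity)]
    congr 1
    rw [hc, mul_inv, Real.inv_rpow hMf0.le, Real.inv_rpow hMg0.le]
  have e4 : ENNReal.ofReal Mf⁻¹ ^ (1 - t) * (∫⁻ x, ENNReal.ofReal (f x)) ^ (1 - t) *
      (ENNReal.ofReal Mg⁻¹ ^ t * (∫⁻ x, ENNReal.ofReal (g x)) ^ t) =
      ENNReal.ofReal c⁻¹ * ((∫⁻ x, ENNReal.ofReal (f x)) ^ (1 - t) *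
        (∫⁻ x, ENNReal.ofReal (g x)) ^ t) := by
    rw [← e3]; ring
  rw [e4] at key2
  have hc0 : ENNReal.ofReal c⁻¹ ≠ 0 := by
    simp only [ne_eq, ENNReal.ofReal_eq_zero, not_le]
    exact inv_pos.mpr hcpos
  exact (ENNReal.mul_le_mul_iff_right hc0 ENNReal.ofReal_ne_top).mp key2

/-- Exponential change of variables on the half-line. -/
theorem lintegral_Ioi_eq_exp (φ : ℝ → ℝ) :
    ∫⁻ x in Ioi (0:ℝ), ENNReal.ofReal (φ x) =
      ∫⁻ u, ENNReal.ofReal (Real.exp u * φ (Real.exp u)) := by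
  have := lintegral_image_eq_lintegral_abs_deriv_mul (s := univ) (f := Real.exp)
    (f' := Real.exp) MeasurableSet.univ
    (fun x _ => (Real.hasDerivAt_exp x).hasDerivWithinAt) Real.exp_injective.injOn
    (fun x => ENNReal.ofReal (φ x))
  rw [image_univ, Real.range_exp, Measure.restrict_univ] at this
  rw [this]
  refine lintegral_congr fun u => ?_
  rw [abs_of_pos (Real.exp_pos u), ← ENNReal.ofReal_mul (Real.exp_pos u).le]

/-- Prékopa-Leindler inequality on the half-line in multiplicative form,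
for bounded functions with bounded support. -/
theorem pl_mul {f g h : ℝ → ℝ} (hf : Measurable f) (hg : Measurable g)
    (hh : Measurable h) (hf0 : ∀ x, 0 ≤ f x) (hg0 : ∀ x, 0 ≤ g x) (hh0 : ∀ x, 0 ≤ h x)
    {C R : ℝ} (hfC : ∀ x, f x ≤ C) (hgC : ∀ x, g x ≤ C)
    (hfR : ∀ x, R < x → f x = 0) (hgR : ∀ x, R < x → g x = 0)
    {t : ℝ} (ht0 : 0 < t) (ht1 : t < 1)
    (H : ∀ x y, 0 < x → 0 < y → f x ^ (1 - t) * g y ^ t ≤ h (x ^ (1 - t) * y ^ t)) :
    (∫⁻ x in Ioi (0:ℝ), ENNReal.ofReal (f x)) ^ (1 - t) *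
        (∫⁻ x in Ioi (0:ℝ), ENNReal.ofReal (g x)) ^ t ≤
      ∫⁻ x in Ioi (0:ℝ), ENNReal.ofReal (h x) := by
  have h1t : (0 : ℝ) < 1 - t := by linarith
  rw [lintegral_Ioi_eq_exp f, lintegral_Ioi_eq_exp g, lintegral_Ioi_eq_exp h]
  have hC : 0 ≤ C := (hf0 0).trans (hfC 0)
  have bdd : ∀ φ : ℝ → ℝ, (∀ x, 0 ≤ φ x) → (∀ x, φ x ≤ C) → (∀ x, R < x → φ x = 0) →
      BddAbove (range fun u => Real.exp u * φ (Real.exp u)) := by
    intro φ h0 hC' hR
    refine ⟨max R 0 * C, ?_⟩
    rintro _ ⟨u, rfl⟩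
    simp only
    rcases lt_or_ge R (Real.exp u) with hlt | hge
    · rw [hR _ hlt, mul_zero]
      exact mul_nonneg (le_max_right _ _) hC
    · exact mul_le_mul (hge.trans (le_max_left _ _)) (hC' _) (h0 _) (le_max_right _ _)
  refine pl1d (f := fun u => Real.exp u * f (Real.exp u))
    (g := fun u => Real.exp u * g (Real.exp u)) (h := fun u => Real.exp u * h (Real.exp u))
    (Real.measurable_exp.mul (hf.comp Real.measurable_exp))
    (Real.measurable_exp.mul (hg.comp Real.measurable_exp))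
    (Real.measurable_exp.mul (hh.comp Real.measurable_exp))
    (fun u => mul_nonneg (Real.exp_pos u).le (hf0 _))
    (fun u => mul_nonneg (Real.exp_pos u).le (hg0 _))
    (fun u => mul_nonneg (Real.exp_pos u).le (hh0 _))
    (bdd f hf0 hfC hfR) (bdd g hg0 hgC hgR) ht0 ht1 ?_
  intro u v
  show (Real.exp u * f (Real.exp u)) ^ (1 - t) * (Real.exp v * g (Real.exp v)) ^ t ≤
    Real.exp ((1 - t) * u + t * v) * h (Real.exp ((1 - t) * u + t * v))
  have e1 : (Real.exp u * f (Real.exp u)) ^ (1 - t) =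
      Real.exp u ^ (1 - t) * f (Real.exp u) ^ (1 - t) :=
    Real.mul_rpow (Real.exp_pos u).le (hf0 _)
  have e2 : (Real.exp v * g (Real.exp v)) ^ t = Real.exp v ^ t * g (Real.exp v) ^ t :=
    Real.mul_rpow (Real.exp_pos v).le (hg0 _)
  have e3 : Real.exp ((1 - t) * u + t * v) = Real.exp u ^ (1 - t) * Real.exp v ^ t := by
    rw [Real.exp_add, ← Real.exp_mul, ← Real.exp_mul]
    congr 2 <;> ring
  rw [e1, e2, e3]
  have := H (Real.exp u) (Real.exp v) (Real.exp_pos u) (Real.exp_pos v)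
  have hpos : 0 ≤ Real.exp u ^ (1 - t) * Real.exp v ^ t := by positivity
  calc Real.exp u ^ (1 - t) * f (Real.exp u) ^ (1 - t) * (Real.exp v ^ t * g (Real.exp v) ^ t)
      = Real.exp u ^ (1 - t) * Real.exp v ^ t * (f (Real.exp u) ^ (1 - t) * g (Real.exp v) ^ t) := by
        ring
    _ ≤ Real.exp u ^ (1 - t) * Real.exp v ^ t * h (Real.exp u ^ (1 - t) * Real.exp v ^ t) :=
        mul_le_mul_of_nonneg_left this hpos

end Vale.Agent.H61.P227
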