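import Vale.Agent.H61.P227.Slice

/-!
# P227: pairs that are unconditional in `k` coordinates over a common base `M`

`ℝ^(m+k)` is `Fin (m + k) → ℝ`; its points are written `(s, y)` with `s ∈ ℝ^k` the first `k`
coordinates and `y ∈ ℝ^m` the last `m` coordinates (`joinVec s y`).  A set `K` is in the class
`RevHyp M k` if it is invariant under the sign change of each of the first `k` coordinates and
each section `{y | (s, y) ∈ K}` is empty or a dilate `a • M`, `a ≥ 0`.  The logarithmic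
Brunn-Minkowski inequality holds for all pairs of compact sets of this class, by induction on `k`
with the slicing reduction `logBM_of_sections`.
-/

open MeasureTheory Set Pointwise

namespace Vale.Agent.H61.P227

/-- The point `(s_0, …, s_(k-1), y_0, …, y_(m-1))` of `ℝ^(m+k)`. -/
def joinVec {m k : ℕ} (s : Fin k → ℝ) (y : Fin m → ℝ) : Fin (m + k) → ℝ :=
  fun i => Fin.append s y (Fin.cast (Nat.add_comm m k) i)

theorem joinVec_zero {m : ℕ} (s : Fin 0 → ℝ) (y : Fin m → ℝ) :
    (joinVec s y : Fin (m + 0) → ℝ) = y := by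
  funext i
  unfold joinVec
  rw [Fin.append_left_nil s y rfl]
  simp only [Function.comp_apply]
  exact congrArg y (Fin.ext rfl)

theorem joinVec_cons {m k : ℕ} (s0 : ℝ) (s : Fin k → ℝ) (y : Fin m → ℝ) :
    (joinVec (Fin.cons s0 s : Fin (k + 1) → ℝ) y : Fin (m + (k + 1)) → ℝ) =
      (Fin.cons s0 (joinVec s y) : Fin (m + k + 1) → ℝ) := by
  funext i
  unfold joinVec
  rw [Fin.append_cons]
  simp only [Function.comp_apply]
  refine Fin.cases ?_ (fun j => ?_) i
  · have h : Fin.cast (Nat.add_right_comm k 1 m) (Fin.cast (Nat.add_comm m (k + 1)) 0) =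
        (0 : Fin (k + m + 1)) := Fin.ext rfl
    rw [h, Fin.cons_zero, Fin.cons_zero]
  · have h : Fin.cast (Nat.add_right_comm k 1 m) (Fin.cast (Nat.add_comm m (k + 1)) j.succ) =
        Fin.succ (Fin.cast (Nat.add_comm m k) j) := Fin.ext rfl
    rw [h, Fin.cons_succ, Fin.cons_succ]

/-- The class: sign-invariant in each of the first `k` coordinates, sections over the last `m`
coordinates empty or dilates of `M`. -/
def RevHyp {m : ℕ} (M : Set (Fin m → ℝ)) (k : ℕ) (K : Set (Fin (m + k) → ℝ)) : Prop :=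
  (∀ x ∈ K, ∀ i : Fin (m + k), (i : ℕ) < k → Function.update x i (-(x i)) ∈ K) ∧
  ∀ s : Fin k → ℝ, {y : Fin m → ℝ | joinVec s y ∈ K} = ∅ ∨
    ∃ a : ℝ, 0 ≤ a ∧ {y : Fin m → ℝ | joinVec s y ∈ K} = a • M

theorem revHyp_sect {m k : ℕ} {M : Set (Fin m → ℝ)} {K : Set (Fin (m + k + 1) → ℝ)}
    (h : RevHyp M (k + 1) K) (s0 : ℝ) : RevHyp M k (sect K s0) := by
  refine ⟨?_, ?_⟩
  · intro x hx i hi
    have h1 := h.1 (Fin.cons s0 x) hx i.succ (by simp; omega)
    rw [Fin.cons_succ, ← Fin.cons_update] at h1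
    exact h1
  · intro s
    have h2 := h.2 (Fin.cons s0 s)
    have e : {y : Fin m → ℝ | joinVec (Fin.cons s0 s : Fin (k + 1) → ℝ) y ∈ K} =
        {y : Fin m → ℝ | joinVec s y ∈ sect K s0} := by
      ext y
      simp only [Set.mem_ofPred_eq, sect]
      rw [joinVec_cons]
    rw [e] at h2
    exact h2

theorem revHyp_flip0 {m k : ℕ} {M : Set (Fin m → ℝ)} {K : Set (Fin (m + k + 1) → ℝ)}
    (h : RevHyp M (k + 1) K) (s : ℝ) (y : Fin (m + k) → ℝ)
    (hy : (Fin.cons s y : Fin (m + k + 1) → ℝ) ∈ K) :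
    (Fin.cons (-s) y : Fin (m + k + 1) → ℝ) ∈ K := by
  have h1 := h.1 (Fin.cons s y) hy 0 (by simp)
  rw [Fin.cons_zero, Fin.update_cons_zero] at h1
  exact h1

theorem revHyp_neg {m : ℕ} {M : Set (Fin m → ℝ)} (hMs : ∀ x ∈ M, -x ∈ M) :
    ∀ (k : ℕ) (K : Set (Fin (m + k) → ℝ)), RevHyp M k K → ∀ x ∈ K, -x ∈ K := by
  intro k
  induction k with
  | zero =>
    intro K h x hx
    have e : {y : Fin m → ℝ | joinVec (Fin.elim0 : Fin 0 → ℝ) y ∈ K} = K := by
      ext y
      simp only [Set.mem_ofPred_eq]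
      rw [joinVec_zero]
    rcases h.2 Fin.elim0 with h2 | ⟨a, -, h2⟩
    · rw [e] at h2
      rw [h2] at hx
      exact absurd hx (notMem_empty x)
    · rw [e] at h2
      rw [h2] at hx ⊢
      obtain ⟨z, hz, rfl⟩ := hx
      exact ⟨-z, hMs z hz, by simp⟩
  | succ k ih =>
    intro K h x hx
    have hx' : (Fin.cons (x 0) (Fin.tail x) : Fin (m + k + 1) → ℝ) ∈ K := by
      rw [Fin.cons_self_tail]
      exact hx
    have h1 : -Fin.tail x ∈ sect K (x 0) := ih (sect K (x 0)) (revHyp_sect h (x 0)) _ hx'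
    have h2 := revHyp_flip0 h (x 0) (-Fin.tail x) h1
    have e : (Fin.cons (-(x 0)) (-Fin.tail x) : Fin (m + k + 1) → ℝ) = -x := by
      funext i
      refine Fin.cases ?_ (fun j => ?_) i
      · simp
      · simp [Fin.tail]
    rw [e] at h2
    exact h2

/-- **Logarithmic Brunn-Minkowski for pairs unconditional in `k` coordinates over a base `M`.** -/
theorem logBM_rev {m : ℕ} {M : Set (Fin m → ℝ)} (hM : IsCompact M) (hMs : ∀ x ∈ M, -x ∈ M)
    {lam : ℝ} (h0 : 0 < lam) (h1 : lam < 1) :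
    ∀ (k : ℕ) (K L : Set (Fin (m + k) → ℝ)), IsCompact K → IsCompact L →
      RevHyp M k K → RevHyp M k L →
      volume K ^ (1 - lam) * volume L ^ lam ≤ volume (logSum lam K L) := by
  have h1' : 0 < 1 - lam := by linarith
  intro k
  induction k with
  | zero =>
    intro K L _ _ hKc hLc
    have eK : {y : Fin m → ℝ | joinVec (Fin.elim0 : Fin 0 → ℝ) y ∈ K} = K := by
      ext y
      simp only [Set.mem_ofPred_eq]
      rw [joinVec_zero]
    have eL : {y : Fin m → ℝ | joinVec (Fin.elim0 : Fin 0 → ℝ) y ∈ L} = L := by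
      ext y
      simp only [Set.mem_ofPred_eq]
      rw [joinVec_zero]
    rcases hKc.2 Fin.elim0 with h | ⟨a, ha, h⟩
    · rw [eK] at h
      rw [h]; simp [ENNReal.zero_rpow_of_pos h1']
    rcases hLc.2 Fin.elim0 with h' | ⟨b, hb, h'⟩
    · rw [eL] at h'
      rw [h']; simp [ENNReal.zero_rpow_of_pos h0]
    rw [eK] at h
    rw [eL] at h'
    rw [h, h']
    exact logBM_dilates hM hMs ha hb h0 h1
  | succ k ih =>
    intro K L hK hL hKc hLc
    exact logBM_of_sections h0 h1 hK hL (revHyp_neg hMs (k + 1) K hKc)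
      (revHyp_neg hMs (k + 1) L hLc) (revHyp_flip0 hKc) (revHyp_flip0 hLc)
      (fun s t _ _ => ih (sect K s) (sect L t) (isCompact_sect hK s) (isCompact_sect hL t)
        (revHyp_sect hKc s) (revHyp_sect hLc t))

end Vale.Agent.H61.P227
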