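import Vale.Agent.H61.P227.BlockStretch
import Vale.Agent.H61.P227.PL1D

/-!
# P227: reduction of the logarithmic Brunn-Minkowski inequality to hyperplane sections

For compact sets `K, L ⊆ ℝ^(n+1)` that are origin-symmetric and symmetric in the first coordinate,
if every pair of sections `K ∩ {x_0 = s}`, `L ∩ {x_0 = t}` (`s, t > 0`) satisfies the logarithmic
Brunn-Minkowski inequality in `ℝ^n`, then `K, L` satisfy it in `ℝ^(n+1)`.
-/

open MeasureTheory Set Pointwise

namespace Vale.Agent.H61.P227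


/-- The section of a set `S ⊆ ℝ^(n+1)` at height `s` of the first coordinate. -/
def sect {n : ℕ} (S : Set (Fin (n + 1) → ℝ)) (s : ℝ) : Set (Fin n → ℝ) :=
  {y | (Fin.cons s y : Fin (n + 1) → ℝ) ∈ S}

theorem cons_dot_cons {n : ℕ} (a w : ℝ) (y v : Fin n → ℝ) :
    (Fin.cons a y : Fin (n + 1) → ℝ) ⬝ᵥ (Fin.cons w v : Fin (n + 1) → ℝ) = a * w + y ⬝ᵥ v := by
  simp [dotProduct, Fin.sum_univ_succ]

theorem supportFn_smul {n : ℕ} (K : Set (Fin n → ℝ)) {r : ℝ} (hr : 0 ≤ r) (u : Fin n → ℝ) :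
    supportFn K (r • u) = r * supportFn K u := by
  unfold supportFn
  have : (fun x : Fin n → ℝ => x ⬝ᵥ (r • u)) '' K = r • ((fun x : Fin n → ℝ => x ⬝ᵥ u) '' K) := by
    ext z
    simp only [mem_image, mem_smul_set, smul_eq_mul, dotProduct_smul]
    constructor
    · rintro ⟨x, hx, rfl⟩
      exact ⟨x ⬝ᵥ u, ⟨x, hx, rfl⟩, rfl⟩
    · rintro ⟨_, ⟨x, hx, rfl⟩, rfl⟩
      exact ⟨x, hx, rfl⟩
  rw [this, Real.sSup_smul_of_nonneg hr, smul_eq_mul]

theorem supportFn_nonneg {n : ℕ} {K : Set (Fin n → ℝ)} (hK : IsCompact K)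
    (hKs : ∀ x ∈ K, -x ∈ K) (hne : K.Nonempty) (u : Fin n → ℝ) : 0 ≤ supportFn K u := by
  obtain ⟨x, hx⟩ := hne
  have h1 := le_supportFn hK hx u
  have h2 := le_supportFn hK (hKs x hx) u
  rw [neg_dotProduct] at h2
  linarith

theorem wulff_isClosed {n : ℕ} (f : (Fin n → ℝ) → ℝ) : IsClosed (wulff f) := by
  have : wulff f = ⋂ (u : Fin n → ℝ) (_ : u ⬝ᵥ u = 1), {x : Fin n → ℝ | x ⬝ᵥ u ≤ f u} := by
    ext x
    simp [wulff]
  rw [this]
  refine isClosed_iInter fun u => isClosed_iInter fun _ => ?_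
  have hcont : Continuous (fun y : Fin n → ℝ => y ⬝ᵥ u) := by
    unfold dotProduct
    fun_prop
  exact isClosed_le hcont continuous_const

/-- Membership in a Wulff shape of a geometric mean of support functions extends from unit
vectors to all vectors, by homogeneity. -/
theorem dot_le_of_mem_logSum {n : ℕ} {K L : Set (Fin n → ℝ)} {lam : ℝ}
    (hKn : ∀ u, 0 ≤ supportFn K u) (hLn : ∀ u, 0 ≤ supportFn L u)
    (hK0 : supportFn K 0 = 0) (hL0 : supportFn L 0 = 0) (h0 : 0 < lam)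
    {y : Fin n → ℝ} (hy : y ∈ logSum lam K L) (v : Fin n → ℝ) :
    y ⬝ᵥ v ≤ supportFn K v ^ (1 - lam) * supportFn L v ^ lam := by
  by_cases hv : v = 0
  · subst hv
    rw [hK0, hL0, Real.zero_rpow h0.ne']
    simp
  have hvv : 0 < v ⬝ᵥ v := by
    have h1 : 0 ≤ v ⬝ᵥ v := Finset.sum_nonneg fun i _ => mul_self_nonneg (v i)
    exact lt_of_le_of_ne h1 fun h => hv (dotProduct_self_eq_zero.mp h.symm)
  set r := Real.sqrt (v ⬝ᵥ v) with hr
  have hrpos : 0 < r := Real.sqrt_pos.mpr hvv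
  set u := r⁻¹ • v with hu
  have huu : u ⬝ᵥ u = 1 := by
    rw [hu, smul_dotProduct, dotProduct_smul, smul_eq_mul, smul_eq_mul, ← mul_assoc,
      ← mul_inv, Real.mul_self_sqrt hvv.le, inv_mul_cancel₀ hvv.ne']
  have hvu : v = r • u := by
    rw [hu, smul_smul, mul_inv_cancel₀ hrpos.ne', one_smul]
  have key := hy u huu
  have e1 : supportFn K v = r * supportFn K u := by
    rw [hvu, supportFn_smul K hrpos.le]
  have e2 : supportFn L v = r * supportFn L u := by
    rw [hvu, supportFn_smul L hrpos.le]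
  have e3 : y ⬝ᵥ v = r * (y ⬝ᵥ u) := by
    rw [hvu, dotProduct_smul, smul_eq_mul]
  rw [e1, e2, e3, Real.mul_rpow hrpos.le (hKn u), Real.mul_rpow hrpos.le (hLn u)]
  have e4 : r ^ (1 - lam) * r ^ lam = r := by
    rw [← Real.rpow_add hrpos]; simp
  calc r * (y ⬝ᵥ u) ≤ r * (supportFn K u ^ (1 - lam) * supportFn L u ^ lam) :=
        mul_le_mul_of_nonneg_left key hrpos.le
    _ = r ^ (1 - lam) * supportFn K u ^ (1 - lam) * (r ^ lam * supportFn L u ^ lam) := by
        nth_rewrite 1 [← e4]; ring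

theorem measurable_cons {n : ℕ} :
    Measurable fun p : ℝ × (Fin n → ℝ) => (Fin.cons p.1 p.2 : Fin (n + 1) → ℝ) := by
  have := (MeasurableEquiv.piFinSuccAbove (fun _ : Fin (n + 1) => ℝ) 0).symm.measurable
  convert this using 2 with p
  simp [MeasurableEquiv.piFinSuccAbove, Fin.insertNthEquiv]

theorem measurableSet_sect {n : ℕ} {S : Set (Fin (n + 1) → ℝ)} (hS : MeasurableSet S) (s : ℝ) :
    MeasurableSet (sect S s) := by
  have : Measurable fun y : Fin n → ℝ => (Fin.cons s y : Fin (n + 1) → ℝ) :=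
    measurable_cons.comp (measurable_const.prodMk measurable_id)
  exact this hS

/-- Cavalieri: the volume of a measurable set is the integral of the volumes of its sections. -/
theorem volume_eq_lintegral_sect {n : ℕ} {S : Set (Fin (n + 1) → ℝ)} (hS : MeasurableSet S) :
    volume S = ∫⁻ s : ℝ, volume (sect S s) := by
  have hmp := (volume_preserving_piFinSuccAbove (fun _ : Fin (n + 1) => ℝ) 0).symm
  have h1 := hmp.measure_preimage hS.nullMeasurableSet
  rw [← h1]
  have hm : MeasurableSet ((MeasurableEquiv.piFinSuccAbove (fun _ : Fin (n + 1) => ℝ) 0).symm ⁻¹' S) :=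
    (MeasurableEquiv.piFinSuccAbove (fun _ : Fin (n + 1) => ℝ) 0).symm.measurable hS
  rw [Measure.volume_eq_prod, Measure.prod_apply hm]
  refine lintegral_congr fun s => ?_
  congr 1
  ext y
  simp [sect, MeasurableEquiv.piFinSuccAbove, Fin.insertNthEquiv]

theorem measurable_volume_sect {n : ℕ} {S : Set (Fin (n + 1) → ℝ)} (hS : MeasurableSet S) :
    Measurable fun s : ℝ => volume (sect S s) := by
  have hm : MeasurableSet ((fun p : ℝ × (Fin n → ℝ) => (Fin.cons p.1 p.2 : Fin (n + 1) → ℝ)) ⁻¹' S) :=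
    measurable_cons hS
  exact measurable_measure_prodMk_left hm

theorem supportFn_zero {n : ℕ} (K : Set (Fin n → ℝ)) : supportFn K 0 = 0 := by
  unfold supportFn
  rcases K.eq_empty_or_nonempty with rfl | hne
  · simp
  · have : (fun x : Fin n → ℝ => x ⬝ᵥ (0 : Fin n → ℝ)) '' K = {0} := by
      ext z
      simp only [dotProduct_zero, mem_image, mem_singleton_iff]
      constructor
      · rintro ⟨x, _, rfl⟩; rfl
      · rintro rfl; exact ⟨hne.some, hne.some_mem, rfl⟩
    rw [this, csSup_singleton]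

theorem sect_neg_mem {n : ℕ} {K : Set (Fin (n + 1) → ℝ)} (hKs : ∀ x ∈ K, -x ∈ K)
    (hKr : ∀ (s : ℝ) (y : Fin n → ℝ), (Fin.cons s y : Fin (n + 1) → ℝ) ∈ K →
      (Fin.cons (-s) y : Fin (n + 1) → ℝ) ∈ K) (s : ℝ) :
    ∀ y ∈ sect K s, -y ∈ sect K s := by
  intro y hy
  have h1 := hKs _ hy
  have h2 : -(Fin.cons s y : Fin (n + 1) → ℝ) = Fin.cons (-s) (-y) := by
    ext i
    refine Fin.cases ?_ (fun j => ?_) i <;> simp
  rw [h2] at h1
  have h3 := hKr _ _ h1
  rw [neg_neg] at h3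
  exact h3

theorem sect_subset_closedBall {n : ℕ} {K : Set (Fin (n + 1) → ℝ)} {R : ℝ}
    (hR : ∀ x ∈ K, ‖x‖ ≤ R) (s : ℝ) : sect K s ⊆ Metric.closedBall 0 R := by
  intro y hy
  have h1 := hR _ hy
  have hR0 : 0 ≤ R := (norm_nonneg _).trans h1
  rw [mem_closedBall_zero_iff, pi_norm_le_iff_of_nonneg hR0]
  intro i
  have := norm_le_pi_norm (Fin.cons s y : Fin (n + 1) → ℝ) i.succ
  rw [Fin.cons_succ] at this
  exact this.trans h1

theorem sect_eq_empty {n : ℕ} {K : Set (Fin (n + 1) → ℝ)} {R : ℝ}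
    (hR : ∀ x ∈ K, ‖x‖ ≤ R) {s : ℝ} (hs : R < |s|) : sect K s = ∅ := by
  ext y
  simp only [mem_empty_iff_false, iff_false]
  intro hy
  have h1 := hR _ hy
  have := norm_le_pi_norm (Fin.cons s y : Fin (n + 1) → ℝ) 0
  rw [Fin.cons_zero, Real.norm_eq_abs] at this
  linarith

theorem continuous_cons {n : ℕ} (s : ℝ) :
    Continuous fun y : Fin n → ℝ => (Fin.cons s y : Fin (n + 1) → ℝ) := by
  refine continuous_pi fun i => ?_
  refine Fin.cases ?_ (fun j => ?_) i
  · simpa using continuous_const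
  · simpa using continuous_apply j

theorem isCompact_sect {n : ℕ} {K : Set (Fin (n + 1) → ℝ)} (hK : IsCompact K) (s : ℝ) :
    IsCompact (sect K s) := by
  obtain ⟨R, hR⟩ := hK.isBounded.exists_norm_le
  refine Metric.isCompact_of_isClosed_isBounded ?_ ?_
  · exact hK.isClosed.preimage (continuous_cons s)
  · exact Metric.isBounded_closedBall.subset (sect_subset_closedBall hR s)

/-- Key inclusion: the logarithmic combination of two sections is contained in the section of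
the logarithmic combination at the geometric mean of the heights (and at its negative). -/
theorem cons_mem_logSum {n : ℕ} {K L : Set (Fin (n + 1) → ℝ)} (hK : IsCompact K)
    (hL : IsCompact L) (hKs : ∀ x ∈ K, -x ∈ K) (hLs : ∀ x ∈ L, -x ∈ L)
    (hKr : ∀ (s : ℝ) (y : Fin n → ℝ), (Fin.cons s y : Fin (n + 1) → ℝ) ∈ K →
      (Fin.cons (-s) y : Fin (n + 1) → ℝ) ∈ K)
    (hLr : ∀ (s : ℝ) (y : Fin n → ℝ), (Fin.cons s y : Fin (n + 1) → ℝ) ∈ L →
      (Fin.cons (-s) y : Fin (n + 1) → ℝ) ∈ L)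
    {lam : ℝ} (h0 : 0 < lam) (h1 : lam < 1) {s t : ℝ} (hs : 0 < s) (ht : 0 < t)
    (hKne : (sect K s).Nonempty) (hLne : (sect L t).Nonempty) {σ : ℝ} (hσ : |σ| = 1)
    {y : Fin n → ℝ} (hy : y ∈ logSum lam (sect K s) (sect L t)) :
    (Fin.cons (σ * (s ^ (1 - lam) * t ^ lam)) y : Fin (n + 1) → ℝ) ∈ logSum lam K L := by
  have h1' : 0 < 1 - lam := by linarith
  intro U _
  obtain ⟨w, v, rfl⟩ : ∃ (w : ℝ) (v : Fin n → ℝ), U = Fin.cons w v :=
    ⟨U 0, Fin.tail U, (Fin.cons_self_tail U).symm⟩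
  show (Fin.cons (σ * (s ^ (1 - lam) * t ^ lam)) y : Fin (n + 1) → ℝ) ⬝ᵥ Fin.cons w v ≤
    supportFn K (Fin.cons w v) ^ (1 - lam) * supportFn L (Fin.cons w v) ^ lam
  rw [cons_dot_cons]
  have cKs := isCompact_sect hK s
  have cLt := isCompact_sect hL t
  have nK := supportFn_nonneg cKs (sect_neg_mem hKs hKr s) hKne
  have nL := supportFn_nonneg cLt (sect_neg_mem hLs hLr t) hLne
  have A2 := dot_le_of_mem_logSum nK nL (supportFn_zero _) (supportFn_zero _) h0 hy v
  -- support functions of the sections against the support functions of the bodies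
  have A3 : ∀ {M : Set (Fin (n + 1) → ℝ)}, IsCompact M →
      (∀ (s : ℝ) (y : Fin n → ℝ), (Fin.cons s y : Fin (n + 1) → ℝ) ∈ M →
        (Fin.cons (-s) y : Fin (n + 1) → ℝ) ∈ M) → ∀ r : ℝ, (sect M r).Nonempty →
      r * |w| + supportFn (sect M r) v ≤ supportFn M (Fin.cons w v) := by
    intro M hM hMr r hne
    have hb : ∀ z ∈ (fun x : Fin n → ℝ => x ⬝ᵥ v) '' sect M r,
        z ≤ supportFn M (Fin.cons w v) - r * |w| := by
      rintro _ ⟨y', hy', rfl⟩
      rcases le_or_gt 0 w with hw | hw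
      · have := le_supportFn hM hy' (Fin.cons w v)
        rw [cons_dot_cons] at this
        rw [abs_of_nonneg hw]
        linarith
      · have := le_supportFn hM (hMr _ _ hy') (Fin.cons w v)
        rw [cons_dot_cons] at this
        rw [abs_of_neg hw]
        linarith
    have := csSup_le (hne.image _) hb
    unfold supportFn at this ⊢
    linarith
  have A3K := A3 hK hKr s hKne
  have A3L := A3 hL hLr t hLne
  set a := supportFn (sect K s) v with ha
  set b := supportFn (sect L t) v with hb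
  have ha0 : 0 ≤ a := nK v
  have hb0 : 0 ≤ b := nL v
  have hw0 : 0 ≤ |w| := abs_nonneg w
  have hsw : 0 ≤ s * |w| := by positivity
  have htw : 0 ≤ t * |w| := by positivity
  -- two-term Hölder inequality
  have hold := sum_geom_le (Finset.univ : Finset (Fin 2)) ![s * |w|, a] ![t * |w|, b]
    (by intro j _; fin_cases j <;> simp [hsw, ha0])
    (by intro j _; fin_cases j <;> simp [htw, hb0]) lam h0.le h1.le
  simp only [Fin.sum_univ_two, Matrix.cons_val_zero, Matrix.cons_val_one] at hold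
  have e1 : (s * |w|) ^ (1 - lam) * (t * |w|) ^ lam = s ^ (1 - lam) * t ^ lam * |w| := by
    rw [Real.mul_rpow hs.le hw0, Real.mul_rpow ht.le hw0]
    have : |w| ^ (1 - lam) * |w| ^ lam = |w| := by
      rcases hw0.eq_or_lt with h | h
      · rw [← h, Real.zero_rpow h0.ne']; simp
      · rw [← Real.rpow_add h]; simp
    calc s ^ (1 - lam) * |w| ^ (1 - lam) * (t ^ lam * |w| ^ lam)
        = s ^ (1 - lam) * t ^ lam * (|w| ^ (1 - lam) * |w| ^ lam) := by ring
      _ = s ^ (1 - lam) * t ^ lam * |w| := by rw [this]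
  have hpos : 0 ≤ s ^ (1 - lam) * t ^ lam := by positivity
  have A1 : σ * (s ^ (1 - lam) * t ^ lam) * w ≤ s ^ (1 - lam) * t ^ lam * |w| := by
    calc σ * (s ^ (1 - lam) * t ^ lam) * w ≤ |σ * (s ^ (1 - lam) * t ^ lam) * w| := le_abs_self _
      _ = s ^ (1 - lam) * t ^ lam * |w| := by
        rw [abs_mul, abs_mul, hσ, one_mul, abs_of_nonneg hpos]
  calc σ * (s ^ (1 - lam) * t ^ lam) * w + y ⬝ᵥ v
      ≤ (s * |w|) ^ (1 - lam) * (t * |w|) ^ lam + a ^ (1 - lam) * b ^ lam := by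
        rw [e1]; exact add_le_add A1 A2
    _ ≤ (s * |w| + a) ^ (1 - lam) * (t * |w| + b) ^ lam := hold
    _ ≤ supportFn K (Fin.cons w v) ^ (1 - lam) * supportFn L (Fin.cons w v) ^ lam := by
        have p1 : 0 ≤ s * |w| + a := by positivity
        have p2 : 0 ≤ t * |w| + b := by positivity
        exact mul_le_mul (Real.rpow_le_rpow p1 A3K h1'.le) (Real.rpow_le_rpow p2 A3L h0.le)
          (by positivity) (Real.rpow_nonneg (p1.trans A3K) _)

/-- Splitting an integral over the line into two integrals over the positive half-line. -/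
theorem lintegral_split (φ : ℝ → ENNReal) :
    ∫⁻ s, φ s = (∫⁻ s in Ioi (0:ℝ), φ (-s)) + ∫⁻ s in Ioi (0:ℝ), φ s := by
  have h1 : ∫⁻ s, φ s = (∫⁻ s in Iio (0:ℝ), φ s) + ∫⁻ s in Ici (0:ℝ), φ s := by
    rw [← lintegral_union measurableSet_Ici (by
      rw [Set.disjoint_left]
      intro x hx hx'
      exact lt_irrefl x (lt_of_lt_of_le (mem_Iio.mp hx) (mem_Ici.mp hx'))), Iio_union_Ici,
      Measure.restrict_univ]
  have h2 : ∫⁻ s in Ici (0:ℝ), φ s = ∫⁻ s in Ioi (0:ℝ), φ s :=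
    setLIntegral_congr Ioi_ae_eq_Ici.symm
  have h3 : ∫⁻ s in Iio (0:ℝ), φ s = ∫⁻ s in Ioi (0:ℝ), φ (-s) := by
    have := (Measure.measurePreserving_neg (volume : Measure ℝ)).setLIntegral_comp_preimage_emb
      (Homeomorph.neg ℝ).measurableEmbedding φ (Iio 0)
    rw [← this]
    congr 2
    ext x
    simp
  rw [h1, h2, h3]

theorem sect_neg {n : ℕ} {K : Set (Fin (n + 1) → ℝ)}
    (hKr : ∀ (s : ℝ) (y : Fin n → ℝ), (Fin.cons s y : Fin (n + 1) → ℝ) ∈ K →
      (Fin.cons (-s) y : Fin (n + 1) → ℝ) ∈ K) (s : ℝ) : sect K (-s) = sect K s := by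
  ext y
  constructor
  · intro hy
    have := hKr _ _ hy
    rwa [neg_neg] at this
  · intro hy
    exact hKr _ _ hy

/-- **Slicing reduction for the logarithmic Brunn-Minkowski inequality.** -/
theorem logBM_of_sections {n : ℕ} {lam : ℝ} (h0 : 0 < lam) (h1 : lam < 1)
    {K L : Set (Fin (n + 1) → ℝ)} (hK : IsCompact K) (hL : IsCompact L)
    (hKs : ∀ x ∈ K, -x ∈ K) (hLs : ∀ x ∈ L, -x ∈ L)
    (hKr : ∀ (s : ℝ) (y : Fin n → ℝ), (Fin.cons s y : Fin (n + 1) → ℝ) ∈ K →
      (Fin.cons (-s) y : Fin (n + 1) → ℝ) ∈ K)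
    (hLr : ∀ (s : ℝ) (y : Fin n → ℝ), (Fin.cons s y : Fin (n + 1) → ℝ) ∈ L →
      (Fin.cons (-s) y : Fin (n + 1) → ℝ) ∈ L)
    (hsec : ∀ s t : ℝ, 0 < s → 0 < t →
      volume (sect K s) ^ (1 - lam) * volume (sect L t) ^ lam ≤
        volume (logSum lam (sect K s) (sect L t))) :
    volume K ^ (1 - lam) * volume L ^ lam ≤ volume (logSum lam K L) := by
  have h1' : 0 < 1 - lam := by linarith
  set Q := logSum lam K L with hQ
  have hQc : IsClosed Q := wulff_isClosed _
  have hQb : Bornology.IsBounded Q := wulff_isBounded _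
  obtain ⟨RK, hRK⟩ := hK.isBounded.exists_norm_le
  obtain ⟨RL, hRL⟩ := hL.isBounded.exists_norm_le
  obtain ⟨RQ, hRQ⟩ := hQb.exists_norm_le
  have hballK : ∀ s, volume (sect K s) ≤
      volume (Metric.closedBall (0 : Fin n → ℝ) (max RK RL)) := fun s =>
    measure_mono ((sect_subset_closedBall hRK s).trans
      (Metric.closedBall_subset_closedBall (le_max_left _ _)))
  have hballL : ∀ s, volume (sect L s) ≤
      volume (Metric.closedBall (0 : Fin n → ℝ) (max RK RL)) := fun s =>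
    measure_mono ((sect_subset_closedBall hRL s).trans
      (Metric.closedBall_subset_closedBall (le_max_right _ _)))
  have hfinB : volume (Metric.closedBall (0 : Fin n → ℝ) (max RK RL)) ≠ ⊤ :=
    measure_closedBall_lt_top.ne
  have hfinK : ∀ s, volume (sect K s) ≠ ⊤ := fun s =>
    ((hballK s).trans_lt measure_closedBall_lt_top).ne
  have hfinL : ∀ s, volume (sect L s) ≠ ⊤ := fun s =>
    ((hballL s).trans_lt measure_closedBall_lt_top).ne
  have hfinQ : ∀ s, volume (sect Q s) ≠ ⊤ := fun s =>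
    ((measure_mono (sect_subset_closedBall hRQ s)).trans_lt measure_closedBall_lt_top).ne
  -- the inequality on each half-line
  have half : ∀ σ : ℝ, |σ| = 1 →
      (∫⁻ s in Ioi (0:ℝ), volume (sect K s)) ^ (1 - lam) *
        (∫⁻ s in Ioi (0:ℝ), volume (sect L s)) ^ lam ≤
      ∫⁻ s in Ioi (0:ℝ), volume (sect Q (σ * s)) := by
    intro σ hσ
    have key := pl_mul (f := fun s => (volume (sect K s)).toReal)
      (g := fun s => (volume (sect L s)).toReal)
      (h := fun s => (volume (sect Q (σ * s))).toReal)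
      (measurable_volume_sect hK.measurableSet).ennreal_toReal
      (measurable_volume_sect hL.measurableSet).ennreal_toReal
      (((measurable_volume_sect hQc.measurableSet).comp (measurable_const_mul σ)).ennreal_toReal)
      (fun _ => ENNReal.toReal_nonneg) (fun _ => ENNReal.toReal_nonneg)
      (fun _ => ENNReal.toReal_nonneg)
      (C := (volume (Metric.closedBall (0 : Fin n → ℝ) (max RK RL))).toReal) (R := max RK RL)
      (fun s => ENNReal.toReal_mono hfinB (hballK s))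
      (fun s => ENNReal.toReal_mono hfinB (hballL s))
      (fun s hs => by
        rw [sect_eq_empty hRK (lt_of_le_of_lt (le_max_left _ _) (hs.trans_le (le_abs_self s)))]
        simp)
      (fun s hs => by
        rw [sect_eq_empty hRL (lt_of_le_of_lt (le_max_right _ _) (hs.trans_le (le_abs_self s)))]
        simp)
      h0 h1 ?_
    · simp only [ENNReal.ofReal_toReal (hfinK _), ENNReal.ofReal_toReal (hfinL _),
        ENNReal.ofReal_toReal (hfinQ _)] at key
      exact key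
    · intro x y hx hy
      show (volume (sect K x)).toReal ^ (1 - lam) * (volume (sect L y)).toReal ^ lam ≤
        (volume (sect Q (σ * (x ^ (1 - lam) * y ^ lam)))).toReal
      rcases (sect K x).eq_empty_or_nonempty with hKe | hKne
      · rw [hKe]
        simp [Real.zero_rpow h1'.ne']
      rcases (sect L y).eq_empty_or_nonempty with hLe | hLne
      · rw [hLe]
        simp [Real.zero_rpow h0.ne']
      have incl : logSum lam (sect K x) (sect L y) ⊆ sect Q (σ * (x ^ (1 - lam) * y ^ lam)) :=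
        fun z hz => cons_mem_logSum hK hL hKs hLs hKr hLr h0 h1 hx hy hKne hLne hσ hz
      have h5 := (hsec x y hx hy).trans (measure_mono incl)
      have h6 := ENNReal.toReal_mono (hfinQ _) h5
      rw [ENNReal.toReal_mul, ← ENNReal.toReal_rpow, ← ENNReal.toReal_rpow] at h6
      exact h6
  -- assemble the two half-lines
  have eK : volume K = 2 * ∫⁻ s in Ioi (0:ℝ), volume (sect K s) := by
    rw [volume_eq_lintegral_sect hK.measurableSet, lintegral_split, two_mul]
    simp only [sect_neg hKr]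
  have eL : volume L = 2 * ∫⁻ s in Ioi (0:ℝ), volume (sect L s) := by
    rw [volume_eq_lintegral_sect hL.measurableSet, lintegral_split, two_mul]
    simp only [sect_neg hLr]
  have eQ : volume Q = (∫⁻ s in Ioi (0:ℝ), volume (sect Q (-s))) +
      ∫⁻ s in Ioi (0:ℝ), volume (sect Q s) := by
    rw [volume_eq_lintegral_sect hQc.measurableSet, lintegral_split]
  have hm := half (-1) (by simp)
  have hp := half 1 (by simp)
  simp only [neg_mul, one_mul] at hm hp
  rw [eK, eL, eQ, ENNReal.mul_rpow_of_nonneg _ _ h1'.le, ENNReal.mul_rpow_of_nonneg _ _ h0.le]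
  have e2 : (2:ENNReal) ^ (1 - lam) * 2 ^ lam = 2 := by
    rw [← ENNReal.rpow_add _ _ (by norm_num) (by norm_num)]
    simp
  set A := ∫⁻ s in Ioi (0:ℝ), volume (sect K s) with hA
  set B := ∫⁻ s in Ioi (0:ℝ), volume (sect L s) with hB
  calc (2:ENNReal) ^ (1 - lam) * A ^ (1 - lam) * (2 ^ lam * B ^ lam)
      = (2:ENNReal) ^ (1 - lam) * 2 ^ lam * (A ^ (1 - lam) * B ^ lam) := by ring
    _ = 2 * (A ^ (1 - lam) * B ^ lam) := by rw [e2]
    _ = A ^ (1 - lam) * B ^ lam + A ^ (1 - lam) * B ^ lam := two_mul _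
    _ ≤ _ := add_le_add hm hp

theorem smul_subset_logSum {n : ℕ} {M : Set (Fin n → ℝ)} (hM : IsCompact M)
    (hMs : ∀ x ∈ M, -x ∈ M) {a b : ℝ} (ha : 0 ≤ a) (hb : 0 ≤ b) {lam : ℝ} (h0 : 0 < lam)
    (h1 : lam < 1) :
    (a ^ (1 - lam) * b ^ lam) • M ⊆ logSum lam (a • M) (b • M) := by
  have h1' : 0 < 1 - lam := by linarith
  rintro _ ⟨m, hm, rfl⟩
  intro u _
  show ((a ^ (1 - lam) * b ^ lam) • m) ⬝ᵥ u ≤
    supportFn (a • M) u ^ (1 - lam) * supportFn (b • M) u ^ lam
  have cA : IsCompact (a • M) := hM.smul a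
  have cB : IsCompact (b • M) := hM.smul b
  have sA : ∀ x ∈ a • M, -x ∈ a • M := by
    rintro _ ⟨x, hx, rfl⟩
    exact ⟨-x, hMs x hx, by simp⟩
  have sB : ∀ x ∈ b • M, -x ∈ b • M := by
    rintro _ ⟨x, hx, rfl⟩
    exact ⟨-x, hMs x hx, by simp⟩
  have nA := supportFn_nonneg cA sA ⟨a • m, smul_mem_smul_set hm⟩ u
  have nB := supportFn_nonneg cB sB ⟨b • m, smul_mem_smul_set hm⟩ u
  have lA := le_supportFn cA (smul_mem_smul_set (a := a) hm) u
  have lB := le_supportFn cB (smul_mem_smul_set (a := b) hm) u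
  rw [smul_dotProduct, smul_eq_mul] at lA lB ⊢
  rcases le_or_gt (m ⬝ᵥ u) 0 with hp | hp
  · have : a ^ (1 - lam) * b ^ lam * (m ⬝ᵥ u) ≤ 0 :=
      mul_nonpos_of_nonneg_of_nonpos (by positivity) hp
    exact this.trans (by positivity)
  · have e : a ^ (1 - lam) * b ^ lam * (m ⬝ᵥ u) =
        (a * (m ⬝ᵥ u)) ^ (1 - lam) * (b * (m ⬝ᵥ u)) ^ lam := by
      rw [Real.mul_rpow ha hp.le, Real.mul_rpow hb hp.le]
      have : (m ⬝ᵥ u) ^ (1 - lam) * (m ⬝ᵥ u) ^ lam = m ⬝ᵥ u := by
        rw [← Real.rpow_add hp]; simp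
      calc a ^ (1 - lam) * b ^ lam * (m ⬝ᵥ u)
          = a ^ (1 - lam) * b ^ lam * ((m ⬝ᵥ u) ^ (1 - lam) * (m ⬝ᵥ u) ^ lam) := by rw [this]
        _ = a ^ (1 - lam) * (m ⬝ᵥ u) ^ (1 - lam) * (b ^ lam * (m ⬝ᵥ u) ^ lam) := by ring
    rw [e]
    exact mul_le_mul (Real.rpow_le_rpow (by positivity) lA h1'.le)
      (Real.rpow_le_rpow (by positivity) lB h0.le) (by positivity) (by positivity)

theorem volume_smul_set {n : ℕ} (c : ℝ) (hc : 0 ≤ c) (M : Set (Fin n → ℝ)) :
    volume (c • M) = ENNReal.ofReal (c ^ n) * volume M := by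
  rw [Measure.addHaar_smul]
  simp [abs_of_nonneg (pow_nonneg hc n)]

/-- The logarithmic Brunn-Minkowski inequality for two dilates of a compact symmetric set. -/
theorem logBM_dilates {n : ℕ} {M : Set (Fin n → ℝ)} (hM : IsCompact M)
    (hMs : ∀ x ∈ M, -x ∈ M) {a b : ℝ} (ha : 0 ≤ a) (hb : 0 ≤ b) {lam : ℝ} (h0 : 0 < lam)
    (h1 : lam < 1) :
    volume (a • M) ^ (1 - lam) * volume (b • M) ^ lam ≤ volume (logSum lam (a • M) (b • M)) := by
  have h1' : 0 < 1 - lam := by linarith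
  refine le_trans (le_of_eq ?_) (measure_mono (smul_subset_logSum hM hMs ha hb h0 h1))
  have hc : 0 ≤ a ^ (1 - lam) * b ^ lam := by positivity
  rw [volume_smul_set a ha, volume_smul_set b hb, volume_smul_set _ hc,
    ENNReal.mul_rpow_of_nonneg _ _ h1'.le, ENNReal.mul_rpow_of_nonneg _ _ h0.le]
  have hV : volume M ^ (1 - lam) * volume M ^ lam = volume M := by
    rcases eq_or_ne (volume M) 0 with hz | hz
    · rw [hz, ENNReal.zero_rpow_of_pos h0]; simp
    · rw [← ENNReal.rpow_add _ _ hz hM.measure_lt_top.ne]; simp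
  have hcn : ENNReal.ofReal (a ^ n) ^ (1 - lam) * ENNReal.ofReal (b ^ n) ^ lam =
      ENNReal.ofReal ((a ^ (1 - lam) * b ^ lam) ^ n) := by
    rw [ENNReal.ofReal_rpow_of_nonneg (pow_nonneg ha n) h1'.le,
      ENNReal.ofReal_rpow_of_nonneg (pow_nonneg hb n) h0.le,
      ← ENNReal.ofReal_mul (by positivity)]
    congr 1
    rw [mul_pow, ← Real.rpow_natCast (a ^ (1 - lam)), ← Real.rpow_natCast (b ^ lam),
      ← Real.rpow_mul ha, ← Real.rpow_mul hb, ← Real.rpow_natCast a, ← Real.rpow_natCast b,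
      ← Real.rpow_mul ha, ← Real.rpow_mul hb, mul_comm (n : ℝ), mul_comm (n : ℝ)]
  calc ENNReal.ofReal (a ^ n) ^ (1 - lam) * volume M ^ (1 - lam) *
        (ENNReal.ofReal (b ^ n) ^ lam * volume M ^ lam)
      = ENNReal.ofReal (a ^ n) ^ (1 - lam) * ENNReal.ofReal (b ^ n) ^ lam *
          (volume M ^ (1 - lam) * volume M ^ lam) := by ring
    _ = ENNReal.ofReal ((a ^ (1 - lam) * b ^ lam) ^ n) * volume M := by rw [hcn, hV]

/-- Unconditional consequence: pairs whose sections are dilates of one compact symmetric set. -/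
theorem logBM_homothetic_sections {n : ℕ} {lam : ℝ} (h0 : 0 < lam) (h1 : lam < 1)
    {M : Set (Fin n → ℝ)} (hM : IsCompact M) (hMs : ∀ x ∈ M, -x ∈ M)
    {K L : Set (Fin (n + 1) → ℝ)} (hK : IsCompact K) (hL : IsCompact L)
    (hKs : ∀ x ∈ K, -x ∈ K) (hLs : ∀ x ∈ L, -x ∈ L)
    (hKr : ∀ (s : ℝ) (y : Fin n → ℝ), (Fin.cons s y : Fin (n + 1) → ℝ) ∈ K →
      (Fin.cons (-s) y : Fin (n + 1) → ℝ) ∈ K)
    (hLr : ∀ (s : ℝ) (y : Fin n → ℝ), (Fin.cons s y : Fin (n + 1) → ℝ) ∈ L →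
      (Fin.cons (-s) y : Fin (n + 1) → ℝ) ∈ L)
    (hKM : ∀ s : ℝ, 0 < s → sect K s = ∅ ∨ ∃ a : ℝ, 0 ≤ a ∧ sect K s = a • M)
    (hLM : ∀ s : ℝ, 0 < s → sect L s = ∅ ∨ ∃ b : ℝ, 0 ≤ b ∧ sect L s = b • M) :
    volume K ^ (1 - lam) * volume L ^ lam ≤ volume (logSum lam K L) := by
  have h1' : 0 < 1 - lam := by linarith
  refine logBM_of_sections h0 h1 hK hL hKs hLs hKr hLr fun s t hs ht => ?_
  rcases hKM s hs with h | ⟨a, ha, h⟩
  · rw [h]; simp [ENNReal.zero_rpow_of_pos h1']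
  rcases hLM t ht with h' | ⟨b, hb, h'⟩
  · rw [h']; simp [ENNReal.zero_rpow_of_pos h0]
  rw [h, h']
  exact logBM_dilates hM hMs ha hb h0 h1

end Vale.Agent.H61.P227
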